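import Vale.Agent.P181.R2.H151.MDefs
import Vale.Agent.P181.R2.H780.Inv

/-!
Row M4: the passage from forms invariant under all the shears to highest weight vectors.
-/

set_option autoImplicit false

open scoped TensorProduct

namespace Vale.Agent.P181.TM

open MvPolynomial Vale.Agent.P181 Vale.Agent.P181.H536 Vale.Agent.P181.H280
open Vale.Agent.P181.H780 Vale.Agent.P181.TN

/-- Injectivity on highest weight vectors. -/
theorem injOn_of_KK2 {n a b : ℕ} (lam : Fin (n + 2) → ℕ)
    (hK : KK2 n a b (∑ i : Fin n, lam i.succ.succ)) (x : Pleth a b (n + 2))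
    (hx : x ∈ hwSpace lam (plethAct a b (n + 2)))
    (h0 : foulkesHowe a b (Fin (n + 2) → ℂ) x = 0) : x = 0 := by
  obtain ⟨l, rfl⟩ := exists_elOf x
  apply elOf_eq_zero
  refine hK (formOf l) (formOf_symm l) ?_ ?_ (isK_formOf l h0)
  · intro z hz w hw P hP
    exact formOf_shear (n := n) lam l hx (shr n z w)
      ⟨fun _ hz' => shr_Z hz', fun _ hu => shr_U_sub hz hw hu⟩ P hP
  · intro c hc P hP
    exact formOf_scal (n := n) lam l hx c hc P hP

theorem plethMult_of_KK2 {n a b : ℕ} (lam : Fin (n + 2) → ℕ)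
    (hK : KK2 n a b (∑ i : Fin n, lam i.succ.succ)) :
    plethMult a b (n + 2) lam ≤ plethMult b a (n + 2) lam :=
  finrank_le_of_inj (foulkesHowe a b (Fin (n + 2) → ℂ)) _ _
    (fun x hx => foulkesHowe_hwSpace lam x hx)
    (fun x hx h0 => injOn_of_KK2 lam hK x hx h0)

end Vale.Agent.P181.TM
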