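import Vale.Agent.P181.R2.H240.NChart
import Vale.Agent.P181.R2.H572.Sl2M

/-!
Row N3b: Lemma I for any number of last variables.
-/

set_option autoImplicit false

open MvPolynomial

namespace Vale.Agent.P181.TN

open Vale.Agent.P181 Vale.Agent.P181.H536 Vale.Agent.P181.H280

lemma ZZ_exists {n : ℕ} {z : Sn n} (hz : z ∈ ZZ n) :
    ∃ c : Fin n → ℂ, z = ∑ i, c i • (X i.succ.succ : Sn n) := by
  rw [ZZ] at hz
  obtain ⟨c, hc⟩ := (Submodule.mem_span_range_iff_exists_fun ℂ).1 hz
  exact ⟨c, hc.symm⟩

lemma zsum_mem {n : ℕ} (c : Fin n → ℂ) : ∑ i, c i • (X i.succ.succ : Sn n) ∈ ZZ n :=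
  Submodule.sum_mem _ fun i _ => (ZZ n).smul_mem _ (Submodule.subset_span ⟨i, rfl⟩)

/-- The product of `b` chart linear forms lies in the `b`-th power. -/
lemma prod_line_mem {n b : ℕ} (x : Fin b → ℂ) (z : Fin b → Sn n) (hz : ∀ j, z j ∈ ZZ n) :
    ∏ j, (ln n (x j) + z j) ∈ linS (n + 2) ^ b := by
  have h1 := H240.prod_mem_pow_card (linS (n + 2)) (Finset.univ : Finset (Fin b))
    (fun j => ln n (x j) + z j) (fun j => line_mem (hz j) _)
  rwa [Finset.card_univ, Fintype.card_fin] at h1

/-- **Lemma I.** -/
theorem lemmaI {n a b s t : ℕ} (hb : 1 ≤ b) (hs : 1 ≤ s) (h : n * ((s - 1) * b) < (n + 1) * t)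
    (F : Fm n a) (hI : Inv b F) (hH : Hom b t F) (hQ : QQ s b F) : IsK (linS (n + 2)) b F := by
  apply isK_of_chart
  intro x z hz
  choose c₀ hc₀ using fun j => ZZ_exists (hz j)
  obtain ⟨G, hG, -⟩ := mv_exists (σ := Fin b × Fin n) F (fun _ => ∏ j : Fin b,
    (C (ln n (x j)) + ∑ i : Fin n, X (j, i) * C (X i.succ.succ : Sn n)))
  have hG' : ∀ c : Fin b × Fin n → ℂ, eval c G =
      F (fun _ => ∏ j, (ln n (x j) + ∑ i, c (j, i) • (X i.succ.succ : Sn n))) := by
    intro c
    rw [hG]
    congr 1
    funext _
    rw [map_prod]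
    apply Finset.prod_congr rfl
    intro j _
    rw [map_add, evA_C, map_sum]
    congr 1
    apply Finset.sum_congr rfl
    intro i _
    rw [map_mul, evA_X, evA_C, Algebra.smul_def]
  have hmem : ∀ c : Fin b × Fin n → ℂ,
      ∏ j, (ln n (x j) + ∑ i, c (j, i) • (X i.succ.succ : Sn n)) ∈ linS (n + 2) ^ b :=
    fun c => prod_line_mem x _ (fun j => zsum_mem _)
  have hhom : G.IsHomogeneous t := by
    apply H240.isHomogeneous_of_scaling
    intro c l hl
    rw [hG', hG', ← hH l hl _ (fun _ => hmem c)]
    congr 1
    funext _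
    rw [map_prod]
    apply Finset.prod_congr rfl
    intro j _
    rw [map_add, scal_ln, scal_Z (zsum_mem _), Finset.smul_sum]
    congr 1
    apply Finset.sum_congr rfl
    intro i _
    rw [smul_smul]
  have hG0 : G = 0 := by
    apply R2.H572.Blk.sl2_multi (fun _ : Fin b => s - 1) (T := t) G
    · intro m hm j
      apply H240.block_le_of_lines G j (s - 1) _ m hm
      intro c
      obtain ⟨p, hp, hpe⟩ := hQ (x j) _ (zsum_mem (fun i => c (j, i)))
        (fun _ => ∏ j' ∈ Finset.univ.erase j,
          (ln n (x j') + ∑ i, c (j', i) • (X i.succ.succ : Sn n))) (by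
          intro _
          have h1 := H240.prod_mem_pow_card (linS (n + 2)) (Finset.univ.erase j)
            (fun j => ln n (x j) + ∑ i, c (j, i) • (X i.succ.succ : Sn n))
            (fun j => line_mem (zsum_mem _) _)
          rwa [Finset.card_erase_of_mem (Finset.mem_univ j), Finset.card_univ,
            Fintype.card_fin] at h1)
      refine ⟨p, ?_, ?_⟩
      · by_cases hp0 : p = 0
        · rw [hp0]; simp
        · rw [Polynomial.degree_eq_natDegree hp0] at hp
          have : p.natDegree < s := by exact_mod_cast hp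
          omega
      · intro e
        rw [hG', hpe]
        congr 1
        funext _
        rw [← Finset.mul_prod_erase Finset.univ _ (Finset.mem_univ j)]
        congr 1
        · rw [Finset.smul_sum]
          congr 1
          apply Finset.sum_congr rfl
          intro i _
          rw [if_pos rfl, smul_smul]
        · apply Finset.prod_congr rfl
          intro j' hj'
          congr 1
          apply Finset.sum_congr rfl
          intro i _
          rw [if_neg (Finset.ne_of_mem_erase hj')]
    · intro m hm
      have h1 := hhom (mem_support_iff.1 hm)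
      rw [← h1, Finsupp.weight_apply, Finsupp.sum_fintype _ _ (fun _ => by simp)]
      apply Finset.sum_congr rfl
      intro p _
      simp
    · intro i e c
      rw [hG', hG', ← hI (e • (X i.succ.succ : Sn n))
        ((ZZ n).smul_mem _ (Submodule.subset_span ⟨i, rfl⟩)) _ (fun _ => hmem c)]
      congr 1
      funext _
      rw [map_prod]
      apply Finset.prod_congr rfl
      intro j _
      rw [map_add, sh_ln, sh_Z (zsum_mem _)]
      have h1 : ∀ i' : Fin n, (if (j, i').2 = i then c (j, i') + e else c (j, i')) •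
          (X i'.succ.succ : Sn n) = c (j, i') • (X i'.succ.succ : Sn n) +
            (if i' = i then e • (X i.succ.succ : Sn n) else 0) := by
        intro i'
        by_cases hi : i' = i
        · subst hi
          rw [if_pos rfl, if_pos rfl, add_smul]
        · rw [if_neg hi, if_neg hi, add_zero]
      rw [Finset.sum_congr rfl (fun i' _ => h1 i'), Finset.sum_add_distrib, Finset.sum_ite_eq',
        if_pos (Finset.mem_univ _)]
      abel
    · rw [Finset.sum_const, Finset.card_univ, Fintype.card_fin, smul_eq_mul, mul_comm b]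
      exact h
  have h2 := hG' (fun q => c₀ q.1 q.2)
  rw [hG0, map_zero] at h2
  rw [h2]
  congr 1
  funext _
  apply Finset.prod_congr rfl
  intro j _
  rw [hc₀ j]

end Vale.Agent.P181.TN
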