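import Vale.Agent.P181.H536.Form
import Vale.Agent.P181.Bdl.B2
import Vale.Agent.P181.R2.H425.SL2

/-!
Lemma I of the three-row theorem (helper298): a form which is invariant under the shear
`p ↦ p + e z`, homogeneous of degree `t` in `z`, and killed by `D_s(ξ)` for every `s > d` and
every `ξ = p + x q`, vanishes on the diagonal at all products of linear forms if `d b < 2 t`.
-/

set_option autoImplicit false

open MvPolynomial

namespace Vale.Agent.P181.H240

open Vale.Agent.P181 H536

section Poly

variable {σ : Type*} [Fintype σ] [DecidableEq σ]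

/-- A bound for the degree in one variable from the restrictions to lines. -/
lemma degreeOf_le_of_lines (G : MvPolynomial σ ℂ) (j : σ) (d : ℕ)
    (h : ∀ c : σ → ℂ, ∃ p : Polynomial ℂ, p.natDegree ≤ d ∧
      ∀ e, p.eval e = eval (Function.update c j e) G) : degreeOf j G ≤ d := by
  rw [degreeOf_le_iff]
  intro m hm
  by_contra hlt
  push Not at hlt
  let Gn : MvPolynomial σ ℂ := ∑ f ∈ G.support.filter (fun f => f j = m j), monomial f (coeff f G)
  have hGn : Gn = 0 := by
    apply MvPolynomial.funext
    intro c
    rw [map_zero]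
    obtain ⟨p, hp, hpe⟩ := h c
    let g : Polynomial ℂ := ∑ f ∈ G.support,
      Polynomial.C (coeff f G * ∏ i ∈ Finset.univ.erase j, c i ^ f i) * Polynomial.X ^ (f j)
    have hg : g = p := by
      apply Polynomial.funext
      intro e
      rw [hpe, eval_eq']
      simp only [g, Polynomial.eval_finsetSum, Polynomial.eval_mul, Polynomial.eval_C,
        Polynomial.eval_pow, Polynomial.eval_X]
      apply Finset.sum_congr rfl
      intro f _
      rw [mul_assoc]
      congr 1
      rw [← Finset.mul_prod_erase Finset.univ _ (Finset.mem_univ j), Function.update_self, mul_comm]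
      congr 1
      apply Finset.prod_congr rfl
      intro i hi
      rw [Function.update_of_ne (Finset.ne_of_mem_erase hi)]
    have hgc : g.coeff (m j) = 0 := by
      rw [hg]
      exact Polynomial.coeff_eq_zero_of_natDegree_lt (lt_of_le_of_lt hp hlt)
    have h1 : eval c Gn = c j ^ (m j) * g.coeff (m j) := by
      simp only [g, Gn, Polynomial.finsetSum_coeff, Polynomial.coeff_C_mul, Polynomial.coeff_X_pow,
        map_sum]
      rw [Finset.sum_filter, Finset.mul_sum]
      apply Finset.sum_congr rfl
      intro f _
      by_cases hf : f j = m j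
      · rw [if_pos hf, if_pos hf.symm, eval_monomial, mul_one, Finsupp.prod_fintype _ _
          (fun i => pow_zero _), ← Finset.mul_prod_erase Finset.univ _ (Finset.mem_univ j), hf]
        ring
      · rw [if_neg hf, if_neg (Ne.symm hf), mul_zero, mul_zero]
    rw [h1, hgc, mul_zero]
  have h2 : coeff m Gn = coeff m G := by
    simp only [Gn, coeff_sum, coeff_monomial]
    rw [Finset.sum_filter, Finset.sum_eq_single m]
    · rw [if_pos rfl, if_pos rfl]
    · intro f _ hf
      rw [if_neg hf, ite_self]
    · intro hm'
      exact absurd hm hm'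
  rw [hGn, coeff_zero] at h2
  exact (mem_support_iff.1 hm) h2.symm

/-- Homogeneity from scaling. -/
lemma isHomogeneous_of_scaling (G : MvPolynomial σ ℂ) (t : ℕ)
    (h : ∀ (c : σ → ℂ) (l : ℂ), l ≠ 0 → eval (fun j => l * c j) G = l ^ t * eval c G) :
    G.IsHomogeneous t := by
  intro d hd
  have hw : Finsupp.weight 1 d = d.degree := by
    rw [Finsupp.degree_eq_weight_one]
    rfl
  rw [hw]
  by_contra hne
  have hcomp : homogeneousComponent d.degree G = 0 := by
    apply MvPolynomial.funext
    intro ζ
    rw [map_zero]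
    let g : Polynomial ℂ := ∑ f ∈ G.support,
      Polynomial.C (coeff f G * ∏ i, ζ i ^ f i) * Polynomial.X ^ f.degree
    have hg : g = Polynomial.C (eval ζ G) * Polynomial.X ^ t := by
      apply Polynomial.eq_of_infinite_eval_eq
      apply Set.Infinite.mono (s := ({0} : Set ℂ)ᶜ)
      · intro l hl
        rw [Set.mem_ofPred_eq, Polynomial.eval_mul, Polynomial.eval_C, Polynomial.eval_pow,
          Polynomial.eval_X, mul_comm, ← h ζ l hl, eval_eq']
        simp only [g, Polynomial.eval_finsetSum, Polynomial.eval_mul, Polynomial.eval_C,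
          Polynomial.eval_pow, Polynomial.eval_X]
        apply Finset.sum_congr rfl
        intro f _
        rw [mul_assoc]
        congr 1
        simp only [mul_pow]
        rw [Finset.prod_mul_distrib, mul_comm]
        congr 1
        rw [Finset.prod_pow_eq_pow_sum, Finsupp.degree_eq_sum]
      · exact (Set.finite_singleton (0 : ℂ)).infinite_compl
    have hgc : g.coeff d.degree = 0 := by
      rw [hg, Polynomial.coeff_C_mul, Polynomial.coeff_X_pow, if_neg hne, mul_zero]
    rw [homogeneousComponent_apply, map_sum, ← hgc]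
    simp only [g, Polynomial.finsetSum_coeff, Polynomial.coeff_C_mul, Polynomial.coeff_X_pow]
    rw [Finset.sum_filter]
    apply Finset.sum_congr rfl
    intro f _
    by_cases hf : f.degree = d.degree
    · rw [if_pos hf, if_pos hf.symm, eval_monomial, mul_one, Finsupp.prod_fintype]
      intro i
      exact pow_zero _
    · rw [if_neg hf, if_neg (Ne.symm hf), mul_zero]
  have h1 : coeff d (homogeneousComponent d.degree G) = coeff d G := by
    rw [coeff_homogeneousComponent, if_pos rfl]
  rw [hcomp, coeff_zero] at h1
  exact hd h1.symm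

end Poly

variable {A : Type*} [CommRing A] [Algebra ℂ A]

/-- The operator `D_s(ξ)`: the sum over all sets of `s` slots in which `z` replaces `ξ`. -/
noncomputable def DD {a : ℕ} (F : MultilinearMap ℂ (fun _ : Fin a => A) ℂ) (s : ℕ) (z ξ : A)
    (Q : Fin a → A) : ℂ :=
  ∑ S ∈ Finset.powersetCard s (Finset.univ : Finset (Fin a)),
    F (fun i => (if i ∈ S then z else ξ) * Q i)

/-- Expansion of the form on a line. -/
lemma line_eq {a : ℕ} (F : MultilinearMap ℂ (fun _ : Fin a => A) ℂ) (z ξ : A) (Q : Fin a → A)
    (e : ℂ) : F (fun i => (ξ + e • z) * Q i) =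
      ∑ s ∈ Finset.range (a + 1), DD F s z ξ Q * e ^ s := by
  have h1 : (fun i => (ξ + e • z) * Q i) = (fun i => e • (z * Q i)) + fun i => ξ * Q i := by
    funext i
    rw [Pi.add_apply, add_mul, smul_mul_assoc, add_comm]
  rw [h1, MultilinearMap.map_add_univ]
  have h2 := Finset.sum_powerset (Finset.univ : Finset (Fin a))
    (fun S => F (S.piecewise (fun i => e • (z * Q i)) (fun i => ξ * Q i)))
  rw [Finset.powerset_univ, Finset.card_univ, Fintype.card_fin] at h2
  rw [h2]
  apply Finset.sum_congr rfl
  intro s _
  rw [DD, Finset.sum_mul]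
  apply Finset.sum_congr rfl
  intro S hS
  have h3 : S.piecewise (fun i => e • (z * Q i)) (fun i => ξ * Q i) =
      S.piecewise (fun i => e • ((if i ∈ S then z else ξ) * Q i))
        (fun i => (if i ∈ S then z else ξ) * Q i) := by
    funext i
    by_cases hi : i ∈ S
    · simp [Finset.piecewise, hi]
    · simp [Finset.piecewise, hi]
  rw [h3]
  have h4 := F.map_piecewise_smul (fun _ => e) (fun i => (if i ∈ S then z else ξ) * Q i) S
  rw [Finset.prod_const, (Finset.mem_powersetCard.1 hS).2, smul_eq_mul, mul_comm] at h4
  exact h4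

omit [Algebra ℂ A] in
lemma prod_mem_pow_card' {R : Type*} [CommSemiring R] [Algebra R A] (L : Submodule R A)
    {ι : Type*} (s : Finset ι) (f : ι → A) (hf : ∀ j, f j ∈ L) : ∏ j ∈ s, f j ∈ L ^ s.card := by
  classical
  induction s using Finset.induction_on with
  | empty => rw [Finset.prod_empty, Finset.card_empty, pow_zero]; exact Submodule.one_le.1 le_rfl
  | insert i s hi ih =>
    rw [Finset.prod_insert hi, Finset.card_insert_of_notMem hi, pow_succ, mul_comm (f i)]
    exact Submodule.mul_mem_mul ih (hf i)

lemma prod_mem_pow_card (L : Submodule ℂ A)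
    {ι : Type*} (s : Finset ι) (f : ι → A) (hf : ∀ j, f j ∈ L) : ∏ j ∈ s, f j ∈ L ^ s.card :=
  prod_mem_pow_card' L s f hf

/-- Vanishing at all products of chart linear forms implies `IsK`. -/
theorem isK_of_chart {a b : ℕ} (F : MultilinearMap ℂ (fun _ : Fin a => A) ℂ) (p q z : A)
    (L : Submodule ℂ A) (hL : ∀ l ∈ L, ∃ α β γ : ℂ, l = α • p + β • q + γ • z)
    (h : ∀ x c : Fin b → ℂ, F (fun _ => ∏ j, (lin p q (x j) + c j • z)) = 0) : IsK L b F := by
  intro m hm hmL
  obtain ⟨f, hf⟩ := exists_fin_map m b hm
  have hfL : ∀ j, f j ∈ L := by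
    intro j
    apply hmL
    rw [hf]
    exact Multiset.mem_map_of_mem f (Finset.mem_univ_val j)
  choose α β γ hl using fun j => hL (f j) (hfL j)
  have hmp : m.prod = ∏ j, f j := by
    rw [hf]; rfl
  rw [hmp]
  obtain ⟨P, hP⟩ := poly_exists F (fun _ => ∏ j, (Polynomial.C (f j) + Polynomial.X * Polynomial.C p))
  have hP' : ∀ e : ℂ, P.eval e = F (fun _ => ∏ j, (f j + e • p)) := by
    intro e
    rw [hP]
    congr 1
    funext _
    rw [Polynomial.eval_prod]
    apply Finset.prod_congr rfl
    intro j _
    rw [Polynomial.eval_add, Polynomial.eval_C, Polynomial.eval_mul, Polynomial.eval_X,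
      Polynomial.eval_C, Algebra.smul_def]
  have hP0 : P = 0 := by
    apply Polynomial.eq_of_infinite_eval_eq
    apply Set.Infinite.mono (s := ((Set.range (fun j => - α j)))ᶜ)
    · intro e he
      rw [Set.mem_ofPred_eq, Polynomial.eval_zero, hP']
      have hne : ∀ j, α j + e ≠ 0 := by
        intro j hj
        apply he
        exact ⟨j, by simp only; linear_combination -hj⟩
      have h1 : ∀ j, f j + e • p =
          (α j + e) • (lin p q (β j / (α j + e)) + (γ j / (α j + e)) • z) := by
        intro j
        rw [smul_add, lin, smul_add, smul_smul, smul_smul, mul_div_cancel₀ _ (hne j),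
          mul_div_cancel₀ _ (hne j), hl j, add_smul]
        abel
      have h2 : (fun _ : Fin a => ∏ j, (f j + e • p)) = fun _ : Fin a => (∏ j, (α j + e)) •
          ∏ j, (lin p q (β j / (α j + e)) + (γ j / (α j + e)) • z) := by
        funext _
        rw [Finset.prod_congr rfl (fun j _ => h1 j), Finset.prod_smul]
      rw [h2, MultilinearMap.map_smul_univ, h, smul_zero]
    · exact (Set.finite_range _).infinite_compl
  have h3 := hP' 0
  rw [hP0, Polynomial.eval_zero] at h3
  rw [h3]
  congr 1
  funext _
  apply Finset.prod_congr rfl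
  intro j _
  rw [zero_smul, add_zero]

/-- **Lemma I.** -/
theorem lemmaI {a b d t : ℕ} (F : MultilinearMap ℂ (fun _ : Fin a => A) ℂ)
    (p q z : A) (L : Submodule ℂ A) (hp : p ∈ L) (hq : q ∈ L) (hz : z ∈ L)
    (hL : ∀ l ∈ L, ∃ α β γ : ℂ, l = α • p + β • q + γ • z)
    (τ g : ℂ → A →ₐ[ℂ] A) (τp : ∀ c, τ c p = p) (τq : ∀ c, τ c q = q) (τz : ∀ c, τ c z = c • z)
    (gp : ∀ e, g e p = p + e • z) (gq : ∀ e, g e q = q) (gz : ∀ e, g e z = z)
    (hom : ∀ c : ℂ, c ≠ 0 → ∀ P : Fin a → A, (∀ i, P i ∈ L ^ b) →
      F (fun i => τ c (P i)) = c ^ t * F P)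
    (inv : ∀ e : ℂ, ∀ P : Fin a → A, (∀ i, P i ∈ L ^ b) → F (fun i => g e (P i)) = F P)
    (hD : ∀ (x : ℂ) (s : ℕ), d < s → ∀ Q : Fin a → A, (∀ i, Q i ∈ L ^ (b - 1)) →
      DD F s z (lin p q x) Q = 0)
    (h : d * b < 2 * t) : IsK L b F := by
  apply isK_of_chart F p q z L hL
  intro x
  obtain ⟨G, hG, -⟩ := mv_exists F (fun _ => ∏ j : Fin b, (C (lin p q (x j)) + X j * C z))
  have hG' : ∀ c : Fin b → ℂ, eval c G = F (fun _ => ∏ j, (lin p q (x j) + c j • z)) := by
    intro c
    rw [hG]
    congr 1
    funext _
    rw [map_prod]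
    apply Finset.prod_congr rfl
    intro j _
    rw [map_add, map_mul, evA_C, evA_X, evA_C, Algebra.smul_def]
  have hlin : ∀ (x c : ℂ), lin p q x + c • z ∈ L := by
    intro x c
    exact L.add_mem (L.add_mem hp (L.smul_mem _ hq)) (L.smul_mem _ hz)
  have hmem : ∀ c : Fin b → ℂ, ∏ j, (lin p q (x j) + c j • z) ∈ L ^ b := by
    intro c
    have h1 := prod_mem_pow_card L (Finset.univ : Finset (Fin b))
      (fun j => lin p q (x j) + c j • z) (fun j => hlin _ _)
    rwa [Finset.card_univ, Fintype.card_fin] at h1
  have hG0 : G = 0 := by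
    apply H425.sl2_lemma (d := d) (t := t) G
    · intro j
      apply degreeOf_le_of_lines
      intro c
      refine ⟨∑ s ∈ Finset.range (a + 1), Polynomial.C (DD F s z (lin p q (x j))
        (fun _ => ∏ j' ∈ Finset.univ.erase j, (lin p q (x j') + c j' • z))) * Polynomial.X ^ s,
        ?_, ?_⟩
      · apply Polynomial.natDegree_sum_le_of_forall_le
        intro s _
        by_cases hs : d < s
        · rw [hD (x j) s hs]
          · simp
          · intro _
            have h1 := prod_mem_pow_card L (Finset.univ.erase j)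
              (fun j => lin p q (x j) + c j • z) (fun j => hlin _ _)
            rwa [Finset.card_erase_of_mem (Finset.mem_univ j), Finset.card_univ,
              Fintype.card_fin] at h1
        · exact (Polynomial.natDegree_C_mul_X_pow_le _ _).trans (by omega)
      · intro e
        rw [hG']
        have h1 : (fun _ : Fin a => ∏ j', (lin p q (x j') + Function.update c j e j' • z)) =
            fun _ => (lin p q (x j) + e • z) *
              ∏ j' ∈ Finset.univ.erase j, (lin p q (x j') + c j' • z) := by
          funext _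
          rw [← Finset.mul_prod_erase Finset.univ _ (Finset.mem_univ j), Function.update_self]
          congr 1
          apply Finset.prod_congr rfl
          intro i hi
          rw [Function.update_of_ne (Finset.ne_of_mem_erase hi)]
        rw [h1, line_eq]
        simp only [Polynomial.eval_finsetSum, Polynomial.eval_mul, Polynomial.eval_C,
          Polynomial.eval_pow, Polynomial.eval_X]
    · apply isHomogeneous_of_scaling
      intro c l hl
      rw [hG', hG', ← hom l hl _ (fun _ => hmem c)]
      congr 1
      funext _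
      rw [map_prod]
      apply Finset.prod_congr rfl
      intro j _
      rw [map_add, map_smul, τz, lin, map_add, map_smul, τp, τq, smul_smul, mul_comm l]
    · intro e c
      rw [hG', hG', ← inv e _ (fun _ => hmem c)]
      congr 1
      funext _
      rw [map_prod]
      apply Finset.prod_congr rfl
      intro j _
      rw [map_add, map_smul, gz, lin, map_add, map_smul, gp, gq, add_smul]
      abel
    · exact h
  intro c
  rw [← hG', hG0, map_zero]

end Vale.Agent.P181.H240
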