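import Vale.Agent.P181.R2.H240.Weight
import Vale.Agent.P181.R2.H280.NDefs

/-!
Row N3a: vanishing at all products of chart linear forms implies vanishing at all products of
linear forms.
-/

set_option autoImplicit false

open MvPolynomial

namespace Vale.Agent.P181.TN

open Vale.Agent.P181 Vale.Agent.P181.H536 Vale.Agent.P181.H280

theorem isK_of_chart {n a b : ℕ} (F : Fm n a) (h : ∀ (x : Fin b → ℂ) (z : Fin b → Sn n),
    (∀ j, z j ∈ ZZ n) → F (fun _ => ∏ j, (ln n (x j) + z j)) = 0) : IsK (linS (n + 2)) b F := by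
  refine H240.isK_of_chartZ F (X 0) (X 1) (ZZ n) (linS (n + 2)) ?_ h
  intro l hl
  rw [linS_eq] at hl
  obtain ⟨u, hu, z, hz, rfl⟩ := Submodule.mem_sup.1 hl
  obtain ⟨α, β, rfl⟩ := Submodule.mem_span_pair.1 hu
  exact ⟨α, β, z, hz, rfl⟩

end Vale.Agent.P181.TN
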