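import Vale.Agent.P181.R2.H151.MDefs
import Vale.Agent.P181.R2.H240.NLemmaI
import Vale.Agent.P181.R2.H572.Sl2B
import Vale.Agent.P181.R2.H572.Mix
import Vale.Agent.P181.R2.H866.NHeavy
import Vale.Agent.P181.H536.Step

/-!
Row W2 of the three-row theorem: `F (z ^ 2 * ∏ l ≠ i, j, p l; P ^ k) = 0`, `P = ∏ l, p l`.
-/

set_option autoImplicit false

open MvPolynomial

namespace Vale.Agent.P181.TM

open Vale.Agent.P181 Vale.Agent.P181.H536 Vale.Agent.P181.H280 Vale.Agent.P181.TN

namespace W2

/-- The line `X 0 + x X 1 + ζ X 2`. -/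
noncomputable def lz (x ζ : ℂ) : Sn 1 := ln 1 x + ζ • X 2

lemma X2_mem : (X 2 : Sn 1) ∈ ZZ 1 := Submodule.subset_span ⟨0, rfl⟩

lemma cX2_mem (c : ℂ) : c • (X 2 : Sn 1) ∈ ZZ 1 := (ZZ 1).smul_mem _ X2_mem

lemma lz_mem (x ζ : ℂ) : lz x ζ ∈ linS (1 + 2) := line_mem (cX2_mem ζ) x

lemma shr_lz (α β x ζ : ℂ) :
    shr 1 (α • (X 2 : Sn 1)) (β • (X 2 : Sn 1)) (lz x ζ) = lz x (ζ + (α + β * x)) := by
  rw [lz, lz, map_add, shr_ln, shr_Z (cX2_mem ζ), smul_smul, add_assoc, ← add_smul, ← add_smul]
  congr 2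
  ring

lemma scal_lz (c x ζ : ℂ) : scal 1 c (lz x ζ) = lz x (c * ζ) := by
  rw [lz, lz, map_add, scal_ln, scal_Z (cX2_mem ζ), smul_smul]

lemma prod_mem {b : ℕ} (S : Finset (Fin b)) (x ζ : Fin b → ℂ) :
    ∏ l ∈ S, lz (x l) (ζ l) ∈ linS (1 + 2) ^ S.card :=
  H240.prod_mem_pow_card _ _ _ (fun l => lz_mem _ _)

lemma prod_univ_mem {b : ℕ} (x ζ : Fin b → ℂ) :
    ∏ l, lz (x l) (ζ l) ∈ linS (1 + 2) ^ b := by
  have h := prod_mem (Finset.univ : Finset (Fin b)) x ζ
  rwa [Finset.card_univ, Fintype.card_fin] at h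

/-- The arguments of the form. -/
noncomputable def arg (k : ℕ) {b : ℕ} (x ζ : Fin b → ℂ) (i j : Fin b) : Fin (k + 1) → Sn 1 :=
  Fin.cons (X 2 ^ 2 * ∏ l ∈ (Finset.univ.erase i).erase j, lz (x l) (ζ l))
    (fun _ => ∏ l, lz (x l) (ζ l))

lemma card_S {b : ℕ} {i j : Fin b} (hij : i ≠ j) :
    ((Finset.univ.erase i).erase j : Finset (Fin b)).card = b - 2 := by
  rw [Finset.card_erase_of_mem (Finset.mem_erase.2 ⟨hij.symm, Finset.mem_univ _⟩),
    Finset.card_erase_of_mem (Finset.mem_univ i), Finset.card_univ, Fintype.card_fin]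
  omega

lemma arg_Dg {k b : ℕ} (hb : 2 ≤ b) (x ζ : Fin b → ℂ) {i j : Fin b} (hij : i ≠ j) :
    Dg b (arg k x ζ i j) := by
  intro l
  refine Fin.cases ?_ (fun l => ?_) l
  · rw [arg, Fin.cons_zero]
    have h1 : linS (1 + 2) ^ b = linS (1 + 2) ^ 2 * linS (1 + 2) ^ (b - 2) := by
      rw [← pow_add]; congr 1; omega
    rw [h1]
    refine Submodule.mul_mem_mul (Submodule.pow_mem_pow _ (ZZ_le X2_mem) 2) ?_
    rw [← card_S hij]
    exact prod_mem _ x ζ
  · rw [arg, Fin.cons_succ]
    exact prod_univ_mem x ζ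

/-- First-order relation. -/
lemma first_order {k b : ℕ} (F : Fm 1 (k + 1)) (hsy : IsSymm F) (hK : IsK (linS (1 + 2)) b F)
    (x ζ : Fin b → ℂ) {i j : Fin b} (hij : i ≠ j) {v : Sn 1} (hv : v ∈ linS (1 + 2)) :
    F.curryLeft (v * (lz (x i) (ζ i) * ∏ l ∈ (Finset.univ.erase i).erase j, lz (x l) (ζ l)))
      (fun _ => ∏ l, lz (x l) (ζ l)) = 0 := by
  have h := DD_one hsy hK {v} {lz (x j) (ζ j)}
    ((Finset.univ.erase j : Finset (Fin b)).val.map (fun l => lz (x l) (ζ l)))
    (Multiset.card_singleton _) (Multiset.card_singleton _) (by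
      rw [Multiset.card_map]
      have h1 := Finset.card_erase_of_mem (Finset.mem_univ j)
      rw [Finset.card_univ, Fintype.card_fin] at h1
      change 1 + (Finset.univ.erase j : Finset (Fin b)).card = b
      have h2 := j.2
      omega)
    (by intro y hy; rw [Multiset.mem_singleton.1 hy]; exact hv)
    (by intro y hy; rw [Multiset.mem_singleton.1 hy]; exact lz_mem _ _)
    (by
      intro y hy
      obtain ⟨l, -, rfl⟩ := Multiset.mem_map.1 hy
      exact lz_mem _ _)
  rw [Multiset.prod_singleton, Multiset.prod_singleton] at h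
  have h1 : ((Finset.univ.erase j : Finset (Fin b)).val.map (fun l => lz (x l) (ζ l))).prod =
      ∏ l ∈ Finset.univ.erase j, lz (x l) (ζ l) := rfl
  rw [h1, Finset.mul_prod_erase Finset.univ (fun l => lz (x l) (ζ l)) (Finset.mem_univ j)] at h
  rw [← Finset.mul_prod_erase (Finset.univ.erase j) (fun l => lz (x l) (ζ l))
    (Finset.mem_erase.2 ⟨hij, Finset.mem_univ i⟩), Finset.erase_right_comm] at h
  exact h

/-- The square of the `i`-th line. -/
lemma square {k b : ℕ} (F : Fm 1 (k + 1)) (hsy : IsSymm F) (hK : IsK (linS (1 + 2)) b F)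
    (x ζ : Fin b → ℂ) {i j : Fin b} (hij : i ≠ j) :
    F.curryLeft (ln 1 (x i) ^ 2 * ∏ l ∈ (Finset.univ.erase i).erase j, lz (x l) (ζ l))
      (fun _ => ∏ l, lz (x l) (ζ l)) = ζ i ^ 2 * F (arg k x ζ i j) := by
  set R := ∏ l ∈ (Finset.univ.erase i).erase j, lz (x l) (ζ l) with hR
  have h1 : ln 1 (x i) ^ 2 * R = (ln 1 (x i) - ζ i • X 2) * (lz (x i) (ζ i) * R) +
      (ζ i ^ 2) • (X 2 ^ 2 * R) := by
    rw [lz, Algebra.smul_def, Algebra.smul_def, map_pow]
    ring
  have h2 : ln 1 (x i) - ζ i • (X 2 : Sn 1) ∈ linS (1 + 2) :=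
    Submodule.sub_mem _ (ln_mem _) (ZZ_le (cX2_mem _))
  rw [h1, map_add, map_smul, _root_.add_apply, _root_.smul_apply,
    first_order F hsy hK x ζ hij h2, zero_add, smul_eq_mul]
  rfl

/-- Invariance. -/
lemma inv {k b : ℕ} (hb : 2 ≤ b) (F : Fm 1 (k + 1)) (hI : Inv2 b F) (x ζ : Fin b → ℂ) {i j : Fin b}
    (hij : i ≠ j) (α β : ℂ) :
    F (arg k x (fun l => ζ l + (α + β * x l)) i j) = F (arg k x ζ i j) := by
  rw [← hI _ (cX2_mem α) _ (cX2_mem β) _ (arg_Dg hb x ζ hij)]
  congr 1
  funext l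
  refine Fin.cases ?_ (fun l => ?_) l
  · rw [arg, Fin.cons_zero, arg, Fin.cons_zero, map_mul, map_pow, shr_Z X2_mem, map_prod]
    congr 1
    exact Finset.prod_congr rfl fun l _ => (shr_lz _ _ _ _).symm
  · rw [arg, Fin.cons_succ, arg, Fin.cons_succ, map_prod]
    exact Finset.prod_congr rfl fun l _ => (shr_lz _ _ _ _).symm

/-- Homogeneity. -/
lemma hom {k b t : ℕ} (hb : 2 ≤ b) (ht : 2 ≤ t) (F : Fm 1 (k + 1)) (hH : Hom b t F)
    (x ζ : Fin b → ℂ) {i j : Fin b} (hij : i ≠ j) (c : ℂ) (hc : c ≠ 0) :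
    F (arg k x (fun l => c * ζ l) i j) = c ^ (t - 2) * F (arg k x ζ i j) := by
  have h1 := hH c hc _ (arg_Dg (k := k) hb x ζ hij)
  have h2 : (fun l => scal 1 c (arg k x ζ i j l)) =
      Fin.cons (c ^ 2 • (X 2 ^ 2 * ∏ l ∈ (Finset.univ.erase i).erase j, lz (x l) (c * ζ l)))
        (fun _ => ∏ l, lz (x l) (c * ζ l)) := by
    funext l
    refine Fin.cases ?_ (fun l => ?_) l
    · rw [arg, Fin.cons_zero, Fin.cons_zero, map_mul, map_pow, scal_Z X2_mem, map_prod,
        smul_pow, smul_mul_assoc]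
      congr 2
      exact Finset.prod_congr rfl fun l _ => scal_lz _ _ _
    · rw [arg, Fin.cons_succ, Fin.cons_succ, map_prod]
      exact Finset.prod_congr rfl fun l _ => scal_lz _ _ _
  rw [h2] at h1
  have h3 : F (Fin.cons (c ^ 2 • (X 2 ^ 2 *
      ∏ l ∈ (Finset.univ.erase i).erase j, lz (x l) (c * ζ l)))
        (fun _ => ∏ l, lz (x l) (c * ζ l))) = c ^ 2 * F (arg k x (fun l => c * ζ l) i j) := by
    rw [← MultilinearMap.curryLeft_apply, map_smul, _root_.smul_apply, smul_eq_mul]
    rfl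
  rw [h3] at h1
  apply mul_left_cancel₀ (pow_ne_zero 2 hc)
  rw [h1, ← mul_assoc, ← pow_add]
  congr 2
  omega

/-- Degree in a variable other than `i`, `j`. -/
lemma deg_other {k b s : ℕ} (hs : 1 ≤ s) (F : Fm 1 (k + 1)) (hQ : QQ s b F) (x ζ : Fin b → ℂ)
    {i j l₀ : Fin b} (hij : i ≠ j) (hli : l₀ ≠ i) (hlj : l₀ ≠ j) :
    ∃ p : Polynomial ℂ, p.natDegree ≤ s - 1 ∧
      ∀ u, p.eval u = F (arg k x (Function.update ζ l₀ (u * ζ l₀)) i j) := by
  have hmem : l₀ ∈ (Finset.univ.erase i).erase j :=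
    Finset.mem_erase.2 ⟨hlj, Finset.mem_erase.2 ⟨hli, Finset.mem_univ _⟩⟩
  have hcard : (((Finset.univ.erase i).erase j).erase l₀).card = b - 3 := by
    rw [Finset.card_erase_of_mem hmem, card_S hij]
    omega
  have hb3 : 3 ≤ b := by
    have h1 : ({l₀, i, j} : Finset (Fin b)).card = 3 := by
      rw [Finset.card_insert_of_notMem, Finset.card_pair hij]
      simp [hli, hlj]
    have h2 := Finset.card_le_univ ({l₀, i, j} : Finset (Fin b))
    rw [h1, Fintype.card_fin] at h2
    exact h2
  obtain ⟨p, hp, hpe⟩ := hQ (x l₀) (ζ l₀ • X 2) (cX2_mem _)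
    (Fin.cons (X 2 ^ 2 * ∏ l ∈ ((Finset.univ.erase i).erase j).erase l₀, lz (x l) (ζ l))
      (fun _ => ∏ l ∈ Finset.univ.erase l₀, lz (x l) (ζ l))) (by
      intro l
      refine Fin.cases ?_ (fun l => ?_) l
      · rw [Fin.cons_zero]
        have h1 : linS (1 + 2) ^ (b - 1) = linS (1 + 2) ^ 2 * linS (1 + 2) ^ (b - 3) := by
          rw [← pow_add]; congr 1; omega
        rw [h1]
        refine Submodule.mul_mem_mul (Submodule.pow_mem_pow _ (ZZ_le X2_mem) 2) ?_
        rw [← hcard]
        exact prod_mem _ x ζ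
      · rw [Fin.cons_succ]
        have h1 := prod_mem (Finset.univ.erase l₀) x ζ
        rwa [Finset.card_erase_of_mem (Finset.mem_univ _), Finset.card_univ,
          Fintype.card_fin] at h1)
  refine ⟨p, ?_, fun u => ?_⟩
  · by_cases hp0 : p = 0
    · rw [hp0, Polynomial.natDegree_zero]; exact Nat.zero_le _
    · rw [Polynomial.degree_eq_natDegree hp0] at hp
      have : p.natDegree < s := by exact_mod_cast hp
      omega
  · rw [hpe]
    congr 1
    funext l
    have h3 : ∀ T : Finset (Fin b), l₀ ∈ T →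
        ∏ l ∈ T, lz (x l) (Function.update ζ l₀ (u * ζ l₀) l) =
        (ln 1 (x l₀) + u • ζ l₀ • X 2) * ∏ l ∈ T.erase l₀, lz (x l) (ζ l) := by
      intro T hT
      rw [← Finset.mul_prod_erase T _ hT]
      congr 1
      · rw [Function.update_self, lz, smul_smul]
      · refine Finset.prod_congr rfl fun l hl => ?_
        rw [Function.update_of_ne (Finset.ne_of_mem_erase hl)]
    refine Fin.cases ?_ (fun l => ?_) l
    · rw [arg, Fin.cons_zero, Fin.cons_zero, h3 _ hmem]
      ring
    · rw [arg, Fin.cons_succ, Fin.cons_succ, h3 _ (Finset.mem_univ _)]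

/-- Degree in the variable `i`. -/
lemma deg_i {k b e : ℕ} (hke : k ≤ e + 2) (F : Fm 1 (k + 1)) (hsy : IsSymm F)
    (hK : IsK (linS (1 + 2)) b F) (x ζ : Fin b → ℂ) {i j : Fin b} (hij : i ≠ j) :
    ∃ p : Polynomial ℂ, p.natDegree ≤ e ∧
      ∀ u, p.eval u = F (arg k x (Function.update ζ i (u * ζ i)) i j) := by
  by_cases hζ : ζ i = 0
  · refine ⟨Polynomial.C (F (arg k x ζ i j)), by rw [Polynomial.natDegree_C]; exact Nat.zero_le _,
      fun u => ?_⟩
    rw [Polynomial.eval_C]
    have h1 : Function.update ζ i (u * ζ i) = ζ := by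
      rw [hζ, mul_zero, ← hζ, Function.update_eq_self]
    rw [h1]
  · set R := ∏ l ∈ (Finset.univ.erase i).erase j, lz (x l) (ζ l) with hR
    have hRu : ∀ u, ∏ l ∈ (Finset.univ.erase i).erase j,
        lz (x l) (Function.update ζ i (u * ζ i) l) = R := by
      intro u
      refine Finset.prod_congr rfl fun l hl => ?_
      rw [Function.update_of_ne (Finset.ne_of_mem_erase (Finset.mem_of_mem_erase hl))]
    have hPu : ∀ u, ∏ l, lz (x l) (Function.update ζ i (u * ζ i) l) =
        ((Polynomial.C (ln 1 (x i)) + Polynomial.X * Polynomial.C (ζ i • (X 2 : Sn 1))) *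
          Polynomial.C (∏ l ∈ Finset.univ.erase i, lz (x l) (ζ l))).eval
            (algebraMap ℂ (Sn 1) u) := by
      intro u
      rw [Polynomial.eval_mul, Polynomial.eval_add, Polynomial.eval_mul, Polynomial.eval_C,
        Polynomial.eval_C, Polynomial.eval_C, Polynomial.eval_X,
        ← Finset.mul_prod_erase Finset.univ _ (Finset.mem_univ i)]
      congr 1
      · rw [Function.update_self, lz, ← smul_smul, Algebra.smul_def u]
      · refine Finset.prod_congr rfl fun l hl => ?_
        rw [Function.update_of_ne (Finset.ne_of_mem_erase hl)]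
    have hdeg : ∀ Y : Sn 1, ∃ p : Polynomial ℂ, p.natDegree ≤ k ∧ ∀ u, p.eval u =
        F.curryLeft Y (fun _ => ∏ l, lz (x l) (Function.update ζ i (u * ζ i) l)) := by
      intro Y
      obtain ⟨p, hp, hpe⟩ := R2.H866.poly_curve (F.curryLeft Y) (fun _ : Fin k =>
        ((Polynomial.C (ln 1 (x i)) + Polynomial.X * Polynomial.C (ζ i • (X 2 : Sn 1))) *
          Polynomial.C (∏ l ∈ Finset.univ.erase i, lz (x l) (ζ l)))) (fun _ => 1) (by
          intro _
          refine (Polynomial.natDegree_mul_C_le _ _).trans ?_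
          refine (Polynomial.natDegree_add_le _ _).trans ?_
          rw [Polynomial.natDegree_C]
          refine max_le (Nat.zero_le _) ((Polynomial.natDegree_mul_C_le _ _).trans ?_)
          exact Polynomial.natDegree_X_le)
      refine ⟨p, ?_, fun u => ?_⟩
      · simpa using hp
      · rw [hpe]
        congr 1
        funext _
        rw [hPu]
    obtain ⟨p, hp, hpe⟩ := hdeg (X 2 ^ 2 * R)
    obtain ⟨q, hq, hqe⟩ := hdeg (ln 1 (x i) ^ 2 * R)
    have hpe' : ∀ u, p.eval u = F (arg k x (Function.update ζ i (u * ζ i)) i j) := by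
      intro u
      rw [hpe, MultilinearMap.curryLeft_apply, arg, hRu]
    refine ⟨p, ?_, hpe'⟩
    have hpq : Polynomial.X ^ 2 * (Polynomial.C (ζ i ^ 2) * p) = q := by
      apply Polynomial.funext
      intro u
      have h1 := square F hsy hK x (Function.update ζ i (u * ζ i)) hij
      rw [hRu, Function.update_self] at h1
      rw [hqe, h1, ← hpe' u, Polynomial.eval_mul, Polynomial.eval_mul, Polynomial.eval_pow,
        Polynomial.eval_X, Polynomial.eval_C]
      ring
    by_cases hp0 : p = 0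
    · rw [hp0, Polynomial.natDegree_zero]; exact Nat.zero_le _
    · have hne : Polynomial.C (ζ i ^ 2) * p ≠ 0 :=
        mul_ne_zero (Polynomial.C_ne_zero.2 (pow_ne_zero _ hζ)) hp0
      have h2 : (Polynomial.X ^ 2 * (Polynomial.C (ζ i ^ 2) * p)).natDegree =
          2 + p.natDegree := by
        rw [Polynomial.natDegree_mul (pow_ne_zero _ Polynomial.X_ne_zero) hne,
          Polynomial.natDegree_X_pow, Polynomial.natDegree_C_mul (pow_ne_zero _ hζ)]
      rw [hpq] at h2
      omega

end W2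

open W2

/-- **Row W2.** -/
theorem psi_zero {k b t s e : ℕ} (hb : 2 ≤ b) (hs : 1 ≤ s) (hke : k ≤ e + 2)
    (hnum : (b - 2) * (s - 1) + e + 4 < 2 * t) (F : Fm 1 (k + 1)) (hsy : IsSymm F)
    (hI : Inv2 b F) (hH : Hom b t F) (hK : IsK (linS (1 + 2)) b F) (hQ : QQ s b F)
    (x : Fin b → ℂ) (hx : Function.Injective x) (ζ : Fin b → ℂ) (i j : Fin b) (hij : i ≠ j) :
    F.curryLeft (X 2 ^ 2 * ∏ l ∈ (Finset.univ.erase i).erase j, (ln 1 (x l) + ζ l • X 2))
      (fun _ => ∏ l, (ln 1 (x l) + ζ l • X 2)) = 0 := by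
  have hgoal : F (arg k x ζ i j) = 0 := by
    obtain ⟨G, hG, -⟩ := mv_exists (σ := Fin b) F (Fin.cons
      (C ((X 2 : Sn 1) ^ 2) * ∏ l ∈ (Finset.univ.erase i).erase j,
        (C (ln 1 (x l)) + X l * C ((x l - x j) • (X 2 : Sn 1))))
      (fun _ => ∏ l, (C (ln 1 (x l)) + X l * C ((x l - x j) • (X 2 : Sn 1)))))
    have hl : ∀ (c : Fin b → ℂ) (l : Fin b),
        evA c (C (ln 1 (x l)) + X l * C ((x l - x j) • (X 2 : Sn 1))) =
          lz (x l) (c l * (x l - x j)) := by
      intro c l
      rw [map_add, evA_C, map_mul, evA_X, evA_C, lz, ← smul_smul, Algebra.smul_def (c l)]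
    have hG' : ∀ c : Fin b → ℂ, eval c G = F (arg k x (fun l => c l * (x l - x j)) i j) := by
      intro c
      rw [hG]
      congr 1
      funext l
      refine Fin.cases ?_ (fun l => ?_) l
      · rw [Fin.cons_zero, arg, Fin.cons_zero, map_mul, evA_C, map_prod]
        congr 1
        exact Finset.prod_congr rfl fun l _ => hl c l
      · rw [Fin.cons_succ, arg, Fin.cons_succ, map_prod]
        exact Finset.prod_congr rfl fun l _ => hl c l
    have hhom : ∀ (c : Fin b → ℂ) (l : ℂ), l ≠ 0 →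
        eval (fun j => l * c j) G = l ^ (t - 2) * eval c G := by
      intro c l hl0
      rw [hG', hG', ← hom hb (by omega) F hH x _ hij l hl0]
      congr 2
      funext q
      ring
    have hsum := R2.H572.Mix.sum_of_scaling G (t - 2) hhom
    have hG0 : G = 0 := by
      refine R2.H572.Blk.sl2_block (fun j : Fin b => j) (fun j => j) (fun _ => rfl)
        (fun l => if l = j then 0 else if l = i then e else s - 1) (t := t - 2) (l := t - 2) G
        ?_ hsum hsum ?_ ?_
      · intro m hm l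
        have h1 : (Finset.univ.filter (fun i : Fin b => i = l)) = {l} := by
          ext i; simp
        rw [h1]
        apply R2.H572.Mix.deg_le_of_scaling {l} G _ _ m hm
        intro c
        have h2 : ∀ u : ℂ, (fun q => (if q ∈ ({l} : Finset (Fin b)) then u * c q else c q) *
            (x q - x j)) = Function.update (fun q => c q * (x q - x j)) l
              (u * (c l * (x l - x j))) := by
          intro u
          funext q
          by_cases hq : q = l
          · subst hq
            rw [if_pos (Finset.mem_singleton_self _), Function.update_self, mul_assoc]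
          · rw [if_neg (by rw [Finset.mem_singleton]; exact hq), Function.update_of_ne hq]
        by_cases hlj : l = j
        · refine ⟨Polynomial.C (F (arg k x (fun q => c q * (x q - x j)) i j)), ?_, fun u => ?_⟩
          · rw [Polynomial.natDegree_C]; exact Nat.zero_le _
          · rw [Polynomial.eval_C, hG', h2]
            congr 2
            subst hlj
            rw [sub_self, mul_zero, mul_zero]
            symm
            rw [Function.update_eq_self_iff]
            simp
        · rw [if_neg hlj]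
          by_cases hli : l = i
          · rw [if_pos hli]
            subst hli
            obtain ⟨p, hp, hpe⟩ := deg_i hke F hsy hK x (fun q => c q * (x q - x j)) hij
            refine ⟨p, hp, fun u => ?_⟩
            rw [hpe, hG', h2]
          · rw [if_neg hli]
            obtain ⟨p, hp, hpe⟩ := deg_other hs F hQ x (fun q => c q * (x q - x j)) hij hli hlj
            refine ⟨p, hp, fun u => ?_⟩
            rw [hpe, hG', h2]
      · intro ε c
        simp only [if_true]
        rw [hG', hG', ← inv hb F hI x (fun q => c q * (x q - x j)) hij (-(ε * x j)) ε]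
        congr 2
        funext q
        ring
      · rw [← Finset.add_sum_erase Finset.univ _ (Finset.mem_univ i),
          ← Finset.add_sum_erase (Finset.univ.erase i) _
            (Finset.mem_erase.2 ⟨hij.symm, Finset.mem_univ j⟩), if_pos rfl, if_neg hij,
          if_pos rfl, zero_add]
        have h1 : ∑ l ∈ (Finset.univ.erase i).erase j,
            (if l = j then 0 else if l = i then e else s - 1) = (b - 2) * (s - 1) := by
          rw [← card_S hij, ← smul_eq_mul, ← Finset.sum_const]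
          refine Finset.sum_congr rfl fun l hl => ?_
          rw [if_neg (Finset.ne_of_mem_erase hl),
            if_neg (Finset.ne_of_mem_erase (Finset.mem_of_mem_erase hl))]
        rw [h1]
        omega
    have h1 := inv hb F hI x ζ hij (-ζ j) 0
    rw [← h1]
    have h2 := hG' (fun l => (ζ l - ζ j) / (x l - x j))
    rw [hG0, map_zero] at h2
    refine Eq.trans ?_ h2.symm
    congr 2
    funext l
    by_cases hlj : l = j
    · subst hlj
      rw [sub_self]
      ring
    · have h3 : x l - x j ≠ 0 := sub_ne_zero.2 fun h => hlj (hx h)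
      rw [div_mul_cancel₀ _ h3]
      ring
  exact hgoal

end Vale.Agent.P181.TM
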