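import Vale.Agent.P181.R2.H240.LemmaI
import Vale.Agent.P181.R2.H556.ThreeDefs

/-!
Row R3 of `P181.ThreeRowTail`: Lemma I.
-/

set_option autoImplicit false

open MvPolynomial

namespace Vale.Agent.P181.T3R

open Vale.Agent.P181 Vale.Agent.P181.H536 Vale.Agent.P181.H280 Vale.Agent.P181.H240

lemma linS3_mem {l : S3} (hl : l ∈ linS 3) :
    ∃ α β γ : ℂ, l = α • (X 0 : S3) + β • X 1 + γ • X 2 := by
  rw [linS] at hl
  induction hl using Submodule.span_induction with
  | mem x hx =>
    obtain ⟨i, rfl⟩ := hx
    fin_cases i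
    · exact ⟨1, 0, 0, by simp⟩
    · exact ⟨0, 1, 0, by simp⟩
    · exact ⟨0, 0, 1, by simp⟩
  | zero => exact ⟨0, 0, 0, by simp⟩
  | add x y _ _ hx hy =>
    obtain ⟨α, β, γ, rfl⟩ := hx
    obtain ⟨α', β', γ', rfl⟩ := hy
    exact ⟨α + α', β + β', γ + γ', by simp only [add_smul]; abel⟩
  | smul c x _ hx =>
    obtain ⟨α, β, γ, rfl⟩ := hx
    exact ⟨c * α, c * β, c * γ, by simp only [mul_smul, smul_add]⟩

/-- **Lemma I.** -/
theorem lemmaI {a b s t : ℕ} (hb : 1 ≤ b) (hs : 1 ≤ s) (hst : (s - 1) * b < 2 * t) (F : Fm a)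
    (hI : Inv b F) (hH : Hom b t F) (hQ : QQ s b F) : IsK (linS 3) b F := by
  apply isK_of_chart F (X 0) (X 1) (X 2) (linS 3) (fun l hl => linS3_mem hl)
  intro x
  obtain ⟨G, hG, -⟩ := mv_exists F (fun _ => ∏ j : Fin b, (C (ln (x j)) + X j * C (X 2)))
  have hG' : ∀ c : Fin b → ℂ, eval c G = F (fun _ => ∏ j, (ln (x j) + c j • X 2)) := by
    intro c
    rw [hG]
    congr 1
    funext _
    rw [map_prod]
    apply Finset.prod_congr rfl
    intro j _
    rw [map_add, map_mul, evA_C, evA_X, evA_C, Algebra.smul_def]
  have hmem : ∀ c : Fin b → ℂ, ∏ j, (ln (x j) + c j • X 2) ∈ linS 3 ^ b := by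
    intro c
    have h1 := prod_mem_pow_card (linS 3) (Finset.univ : Finset (Fin b))
      (fun j => ln (x j) + c j • X 2) (fun j => line_mem _ _)
    rwa [Finset.card_univ, Fintype.card_fin] at h1
  have hG0 : G = 0 := by
    apply H425.sl2_lemma (d := s - 1) (t := t) G
    · intro j
      apply degreeOf_le_of_lines
      intro c
      obtain ⟨p, hp, hpe⟩ := hQ (x j)
        (fun _ => ∏ j' ∈ Finset.univ.erase j, (ln (x j') + c j' • X 2)) (by
          intro _
          have h1 := prod_mem_pow_card (linS 3) (Finset.univ.erase j)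
            (fun j => ln (x j) + c j • X 2) (fun j => line_mem _ _)
          rwa [Finset.card_erase_of_mem (Finset.mem_univ j), Finset.card_univ,
            Fintype.card_fin] at h1)
      refine ⟨p, ?_, ?_⟩
      · by_cases hp0 : p = 0
        · rw [hp0]; simp
        · rw [Polynomial.degree_eq_natDegree hp0] at hp
          have : p.natDegree < s := by exact_mod_cast hp
          omega
      · intro e
        rw [hG', hpe]
        congr 1
        funext _
        rw [← Finset.mul_prod_erase Finset.univ _ (Finset.mem_univ j), Function.update_self]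
        congr 1
        apply Finset.prod_congr rfl
        intro i hi
        rw [Function.update_of_ne (Finset.ne_of_mem_erase hi)]
    · apply isHomogeneous_of_scaling
      intro c l hl
      rw [hG', hG', ← hH l hl _ (fun _ => hmem c)]
      congr 1
      funext _
      rw [map_prod]
      apply Finset.prod_congr rfl
      intro j _
      rw [map_add, map_smul, tau_X2, ln, map_add, map_smul, tau_X0, tau_X1, smul_smul, mul_comm l]
    · intro e c
      rw [hG', hG', ← hI e _ (fun _ => hmem c)]
      congr 1
      funext _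
      rw [map_prod]
      apply Finset.prod_congr rfl
      intro j _
      rw [map_add, map_smul, sh_X2, ln, map_add, map_smul, sh_X0, sh_X1, add_smul]
      abel
    · exact hst
  intro c
  exact (hG' c).symm.trans (by rw [hG0, map_zero])

end Vale.Agent.P181.T3R
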