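import Vale.Agent.P181.R2.H24.Defs
import Vale.Agent.P181.H536.HW

/-!
Row B of the mod p theorem: the coefficient array of a highest weight vector of the kernel.
-/

set_option autoImplicit false

open scoped TensorProduct

open MvPolynomial

namespace Vale.Agent.P181.ModP.RB

open Vale.Agent.P181 Vale.Agent.P181.H280 Vale.Agent.P181.H536

variable {a b n : ℕ}

/-- The coefficient array. -/
noncomputable def cf (l : (Fin a → Fin b → (Fin n → ℂ)) →₀ ℂ) (w : Lab a b n) : ℂ :=
  formOf l (fun i => ∏ j, X (w (i, j)))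

lemma pos (l : (Fin a → Fin b → (Fin n → ℂ)) →₀ ℂ) (w : Lab a b n)
    (π : Fin a → Equiv.Perm (Fin b)) : cf l (fun x => w (x.1, π x.1 x.2)) = cf l w := by
  rw [cf, cf]
  congr 1
  funext i
  exact Equiv.prod_comp (π i) (fun j => (X (w (i, j)) : MvPolynomial (Fin n) ℂ))

lemma row (l : (Fin a → Fin b → (Fin n → ℂ)) →₀ ℂ) (w : Lab a b n) (σ : Equiv.Perm (Fin a)) :
    cf l (fun x => w (σ x.1, x.2)) = cf l w :=
  formOf_symm l σ (fun i => ∏ j, X (w (i, j)))

lemma ne_zero (l : (Fin a → Fin b → (Fin n → ℂ)) →₀ ℂ) (h : elOf l ≠ 0) : cf l ≠ 0 := by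
  intro hc
  apply h
  apply elOf_eq_zero
  intro P hP
  apply multilinear_zero_of_span (formOf l)
    (Set.range (fun c : Fin b → Fin n => ∏ j, (X (c j) : MvPolynomial (Fin n) ℂ)))
  · intro w hw
    choose c hc' using hw
    have hw' : w = fun i => ∏ j, X (c i j) := by
      funext i; exact (hc' i).symm
    rw [hw']
    exact congrFun hc (fun x => c x.1 x.2)
  · intro i
    exact span_pow_eq _ _ (hP i)

lemma evL_smul_X (r : ℂ) (k : Fin n) : evL n (r • X k) = fun v => r * v k := by
  funext v
  rw [evL_apply, map_smul, aeval_X, smul_eq_mul]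

lemma wt (lam : Fin n → ℕ) (l : (Fin a → Fin b → (Fin n → ℂ)) →₀ ℂ)
    (hx : elOf l ∈ hwSpace lam (plethAct a b n)) (w : Lab a b n) (hw : ¬ Wt lam w) :
    cf l w = 0 := by
  classical
  rw [Wt] at hw
  push Not at hw
  obtain ⟨m, hm⟩ := hw
  let d : Fin n → ℂ := Function.update (fun _ => 1) m 2
  have hd : ∀ k, d k ≠ 0 := by
    intro k
    by_cases hk : k = m
    · subst hk; simp [d]
    · simp [d, Function.update_of_ne hk]
  have hB : IsBorel (Matrix.diagonal d) := by
    refine ⟨fun i j hij => Matrix.diagonal_apply_ne _ (ne_of_gt hij), fun i => ?_⟩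
    rw [Matrix.diagonal_apply_eq]
    exact hd i
  have h1 := formOf_act lam l hx (Matrix.diagonal d) (fun i j => w (i, j))
    (fun i j => d (w (i, j)) • X (w (i, j))) hB (by
      intro i j
      rw [evL_smul_X]
      funext v
      rw [Matrix.toLin'_apply, Matrix.mulVec_diagonal])
  have h2 : formOf l (fun i => ∏ j, d (w (i, j)) • (X (w (i, j)) : MvPolynomial (Fin n) ℂ)) =
      (∏ i, ∏ j, d (w (i, j))) * cf l w := by
    have h3 : (fun i => ∏ j, d (w (i, j)) • (X (w (i, j)) : MvPolynomial (Fin n) ℂ)) =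
        fun i => (∏ j, d (w (i, j))) • ∏ j, (X (w (i, j)) : MvPolynomial (Fin n) ℂ) := by
      funext i
      simp only [Algebra.smul_def, Finset.prod_mul_distrib, map_prod]
    rw [h3, MultilinearMap.map_smul_univ, smul_eq_mul]
    rfl
  have h4 : ∏ i, ∏ j, d (w (i, j)) = 2 ^ (cells w m).card := by
    rw [← Fintype.prod_prod_type (fun x : Fin a × Fin b => d (w x)), cells,
      ← Finset.prod_const, Finset.prod_filter]
    apply Finset.prod_congr rfl
    intro x _
    by_cases hx' : w x = m
    · rw [if_pos hx', hx']; simp [d]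
    · rw [if_neg hx']; simp [d, Function.update_of_ne hx']
  have h5 : ∏ i, Matrix.diagonal d i i ^ lam i = 2 ^ lam m := by
    rw [Finset.prod_eq_single m]
    · rw [Matrix.diagonal_apply_eq]; simp [d]
    · intro k _ hk
      rw [Matrix.diagonal_apply_eq]
      simp [d, Function.update_of_ne hk]
    · intro h; exact absurd (Finset.mem_univ _) h
  rw [h2, h4, h5] at h1
  change (2 : ℂ) ^ (cells w m).card * cf l w = 2 ^ lam m * cf l w at h1
  by_contra hne
  have h6 := mul_right_cancel₀ hne h1
  have h7 : (2 : ℕ) ^ (cells w m).card = 2 ^ lam m := by exact_mod_cast h6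
  exact hm (Nat.pow_right_injective le_rfl h7)

lemma shear (lam : Fin n → ℕ) (l : (Fin a → Fin b → (Fin n → ℂ)) →₀ ℂ)
    (hx : elOf l ∈ hwSpace lam (plethAct a b n)) (i m : Fin n) (him : i < m) (w : Lab a b n)
    (s : ℕ) (hs : 0 < s) : ∑ T ∈ (cells w i).powersetCard s, cf l (relab w T m) = 0 := by
  classical
  let Φ := rowProd b (formOf l)
  have hΦ : ∀ y : Lab a b n, Φ (fun x => X (y x)) = cf l y := fun y => rfl
  have hmain : ∀ t : ℂ, ∑ T ∈ (cells w i).powerset, t ^ T.card * cf l (relab w T m) = cf l w := by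
    intro t
    let g : Matrix (Fin n) (Fin n) ℂ := 1 + t • Matrix.single i m 1
    have hB : IsBorel g := by
      constructor
      · intro p q hpq
        have h1 : ¬ (i = p ∧ m = q) := by
          rintro ⟨rfl, rfl⟩
          exact absurd hpq (not_lt.2 him.le)
        simp only [g, Matrix.add_apply, Matrix.smul_apply, Matrix.one_apply_ne (ne_of_gt hpq),
          Matrix.single_apply, if_neg h1, smul_zero, add_zero]
      · intro p
        have h1 : ¬ (i = p ∧ m = p) := by
          rintro ⟨rfl, h⟩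
          exact absurd him (by rw [h]; exact lt_irrefl _)
        simp only [g, Matrix.add_apply, Matrix.smul_apply, Matrix.one_apply_eq,
          Matrix.single_apply, if_neg h1, smul_zero, add_zero]
        exact one_ne_zero
    have hdiag : ∏ p, g p p ^ lam p = 1 := by
      apply Finset.prod_eq_one
      intro p _
      have h1 : ¬ (i = p ∧ m = p) := by
        rintro ⟨rfl, h⟩
        exact absurd him (by rw [h]; exact lt_irrefl _)
      simp only [g, Matrix.add_apply, Matrix.smul_apply, Matrix.one_apply_eq,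
        Matrix.single_apply, if_neg h1, smul_zero, add_zero, one_pow]
    have h1 := formOf_act lam l hx g (fun p q => w (p, q))
      (fun p q => (if w (p, q) = i then t • X m else 0) + X (w (p, q))) hB (by
        intro p q
        funext v
        rw [map_add, Pi.add_apply, Matrix.toLin'_apply]
        simp only [g, Matrix.add_mulVec, Matrix.one_mulVec, Pi.add_apply, Matrix.smul_mulVec,
          Pi.smul_apply, Matrix.single_mulVec, smul_eq_mul]
        by_cases hw : w (p, q) = i
        · rw [if_pos hw, evL_smul_X, hw, evL_apply, aeval_X]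
          simp only [Function.update_self]
          ring
        · rw [if_neg hw, map_zero, evL_apply, aeval_X]
          simp [Function.update_of_ne hw])
    rw [hdiag, one_mul] at h1
    have h2 : formOf l (fun p => ∏ q, ((if w (p, q) = i then t • X m else 0) + X (w (p, q)))) =
        Φ ((fun x : Fin a × Fin b => if w x = i then t • (X m : MvPolynomial (Fin n) ℂ) else 0) +
          (fun x => X (w x))) := rfl
    rw [h2, MultilinearMap.map_add_univ] at h1
    have h3 : ∀ T : Finset (Fin a × Fin b), Φ (T.piecewise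
        (fun x : Fin a × Fin b => if w x = i then t • (X m : MvPolynomial (Fin n) ℂ) else 0)
          (fun x => X (w x))) =
        if T ∈ (cells w i).powerset then t ^ T.card * cf l (relab w T m) else 0 := by
      intro T
      by_cases hT : T ∈ (cells w i).powerset
      · rw [if_pos hT]
        rw [Finset.mem_powerset] at hT
        have h4 : T.piecewise
            (fun x : Fin a × Fin b => if w x = i then t • (X m : MvPolynomial (Fin n) ℂ) else 0)
              (fun x => X (w x)) =
            fun x => (if x ∈ T then t else 1) • (X (relab w T m x) : MvPolynomial (Fin n) ℂ) := by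
          funext x
          by_cases hxT : x ∈ T
          · have h5 : w x = i := (Finset.mem_filter.1 (hT hxT)).2
            rw [Finset.piecewise_eq_of_mem _ _ _ hxT, if_pos h5, if_pos hxT, relab, if_pos hxT]
          · rw [Finset.piecewise_eq_of_notMem _ _ _ hxT, if_neg hxT, one_smul, relab, if_neg hxT]
        rw [h4, MultilinearMap.map_smul_univ, hΦ, smul_eq_mul]
        congr 1
        rw [Finset.prod_ite_mem, Finset.univ_inter, Finset.prod_const]
      · rw [if_neg hT]
        rw [Finset.mem_powerset, Finset.not_subset] at hT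
        obtain ⟨x, hxT, hx'⟩ := hT
        apply MultilinearMap.map_coord_zero _ x
        rw [Finset.piecewise_eq_of_mem _ _ _ hxT, if_neg]
        intro h
        exact hx' (Finset.mem_filter.2 ⟨Finset.mem_univ _, h⟩)
    rw [Finset.sum_congr rfl (fun T _ => h3 T), Finset.sum_ite_mem, Finset.univ_inter] at h1
    exact h1
  let P : Polynomial ℂ := ∑ T ∈ (cells w i).powerset,
    Polynomial.C (cf l (relab w T m)) * Polynomial.X ^ T.card
  have hP : P = Polynomial.C (cf l w) := by
    apply Polynomial.funext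
    intro t
    rw [Polynomial.eval_C, ← hmain t]
    simp only [P, Polynomial.eval_finsetSum, Polynomial.eval_mul, Polynomial.eval_C,
      Polynomial.eval_pow, Polynomial.eval_X]
    exact Finset.sum_congr rfl fun T _ => mul_comm _ _
  have h1 : P.coeff s = 0 := by
    rw [hP, Polynomial.coeff_C, if_neg (by omega)]
  rw [← h1]
  simp only [P, Polynomial.finsetSum_coeff, Polynomial.coeff_C_mul_X_pow]
  rw [← Finset.sum_filter, Finset.powersetCard_eq_filter]
  apply Finset.sum_congr _ (fun _ _ => rfl)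
  ext T
  simp only [Finset.mem_filter, eq_comm]

/-- The pairing of the canonical map with products of linear functionals. -/
lemma symEval_foulkes (v : Fin a → Fin b → (Fin n → ℂ))
    (ξ : Fin b → Fin a → Module.Dual ℂ (Fin n → ℂ)) :
    symEval (fun j => symEval (ξ j)) (foulkesHowe a b (Fin n → ℂ)
      (SymmetricPower.tprod ℂ (fun i => SymmetricPower.tprod ℂ (v i)))) =
    (Fintype.card (Equiv.Perm (Fin b)) : ℂ) *
      ∑ τ : Fin b → Equiv.Perm (Fin a), ∑ σ : Fin a → Equiv.Perm (Fin b),
        ∏ j, ∏ i, ξ j (τ j i) (v i (σ i j)) := by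
  rw [foulkesHowe_tprod, map_sum]
  simp only [symEval_tprod]
  rw [Finset.sum_comm]
  have h : ∀ e : Equiv.Perm (Fin b), ∑ σ : Fin a → Equiv.Perm (Fin b),
      ∏ j, ∑ τ : Equiv.Perm (Fin a), ∏ i, ξ j i (v (τ i) (σ (τ i) (e j))) =
      ∑ τ : Fin b → Equiv.Perm (Fin a), ∑ σ : Fin a → Equiv.Perm (Fin b),
        ∏ j, ∏ i, ξ j (τ j i) (v i (σ i j)) := by
    intro e
    rw [← (Equiv.piCongrRight (fun _ : Fin a => Equiv.mulRight e⁻¹)).sum_comp
      (fun σ : Fin a → Equiv.Perm (Fin b) =>
        ∏ j, ∑ τ : Equiv.Perm (Fin a), ∏ i, ξ j i (v (τ i) (σ (τ i) (e j))))]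
    have h1 : ∀ σ : Fin a → Equiv.Perm (Fin b),
        ∏ j, ∑ τ : Equiv.Perm (Fin a), ∏ i, ξ j i (v (τ i)
          ((Equiv.piCongrRight (fun _ : Fin a => Equiv.mulRight e⁻¹)) σ (τ i) (e j))) =
        ∑ τ : Fin b → Equiv.Perm (Fin a), ∏ j, ∏ i, ξ j (τ j i) (v i (σ i j)) := by
      intro σ
      rw [Finset.prod_univ_sum, Fintype.piFinset_univ,
        ← (Equiv.piCongrRight (fun _ : Fin b => Equiv.inv (Equiv.Perm (Fin a)))).sum_comp]
      apply Finset.sum_congr rfl
      intro τ _
      apply Finset.prod_congr rfl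
      intro j _
      rw [← Equiv.prod_comp (τ j)]
      apply Finset.prod_congr rfl
      intro i _
      have e1 : (Equiv.piCongrRight (fun _ : Fin b => Equiv.inv (Equiv.Perm (Fin a)))) τ j
          (τ j i) = i := by
        exact (τ j).symm_apply_apply i
      rw [e1]
      have e2 : (Equiv.piCongrRight (fun _ : Fin a => Equiv.mulRight e⁻¹)) σ i (e j) = σ i j := by
        exact congrArg (σ i) (e.symm_apply_apply j)
      rw [e2]
    rw [Finset.sum_congr rfl (fun σ _ => h1 σ), Finset.sum_comm]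
  rw [Finset.sum_congr rfl (fun e _ => h e), Finset.sum_const, nsmul_eq_mul, Finset.card_univ]

lemma symEval_rows (v : Fin a → Fin b → (Fin n → ℂ))
    (ξ : Fin b → Fin a → Module.Dual ℂ (Fin n → ℂ)) :
    ∑ τ : Fin b → Equiv.Perm (Fin a), symEval (fun i => symEval (fun j => ξ j (τ j i)))
      (SymmetricPower.tprod ℂ (fun i => SymmetricPower.tprod ℂ (v i))) =
    (Fintype.card (Equiv.Perm (Fin a)) : ℂ) *
      ∑ τ : Fin b → Equiv.Perm (Fin a), ∑ σ : Fin a → Equiv.Perm (Fin b),
        ∏ j, ∏ i, ξ j (τ j i) (v i (σ i j)) := by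
  simp only [symEval_tprod]
  rw [Finset.sum_comm]
  have h : ∀ e : Equiv.Perm (Fin a), ∑ τ : Fin b → Equiv.Perm (Fin a),
      ∏ i, ∑ ρ : Equiv.Perm (Fin b), ∏ j, ξ j (τ j i) (v (e i) (ρ j)) =
      ∑ τ : Fin b → Equiv.Perm (Fin a), ∑ σ : Fin a → Equiv.Perm (Fin b),
        ∏ j, ∏ i, ξ j (τ j i) (v i (σ i j)) := by
    intro e
    rw [← (Equiv.piCongrRight (fun _ : Fin b => Equiv.mulRight e)).sum_comp
      (fun τ : Fin b → Equiv.Perm (Fin a) =>
        ∏ i, ∑ ρ : Equiv.Perm (Fin b), ∏ j, ξ j (τ j i) (v (e i) (ρ j)))]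
    apply Finset.sum_congr rfl
    intro τ _
    have e1 : ∀ i, ∑ ρ : Equiv.Perm (Fin b), ∏ j,
        ξ j ((Equiv.piCongrRight (fun _ : Fin b => Equiv.mulRight e)) τ j i) (v (e i) (ρ j)) =
        ∑ ρ : Equiv.Perm (Fin b), ∏ j, ξ j (τ j (e i)) (v (e i) (ρ j)) := fun i => rfl
    rw [Finset.prod_congr rfl (fun i _ => e1 i),
      Equiv.prod_comp e (fun i => ∑ ρ : Equiv.Perm (Fin b), ∏ j, ξ j (τ j i) (v i (ρ j))),
      Finset.prod_univ_sum, Fintype.piFinset_univ]
    apply Finset.sum_congr rfl
    intro σ _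
    exact Finset.prod_comm
  rw [Finset.sum_congr rfl (fun e _ => h e), Finset.sum_const, nsmul_eq_mul, Finset.card_univ]

lemma ker (l : (Fin a → Fin b → (Fin n → ℂ)) →₀ ℂ)
    (h0 : foulkesHowe a b (Fin n → ℂ) (elOf l) = 0) (v : Fin b → Fin a → Fin n) :
    ∑ σ : Fin b → Equiv.Perm (Fin a), cf l (fun x => v x.2 (σ x.2 x.1)) = 0 := by
  have h1 : ((Fintype.card (Equiv.Perm (Fin b)) : ℕ) : ℂ) •
      (∑ τ : Fin b → Equiv.Perm (Fin a), symEval (fun i => symEval (fun j =>
        (LinearMap.proj (v j (τ j i)) : Module.Dual ℂ (Fin n → ℂ))))) =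
      ((Fintype.card (Equiv.Perm (Fin a)) : ℕ) : ℂ) •
        (symEval (fun j => symEval (fun i =>
          (LinearMap.proj (v j i) : Module.Dual ℂ (Fin n → ℂ)))) ∘ₗ
            foulkesHowe a b (Fin n → ℂ)) := by
    apply pure_hom_ext
    intro u
    rw [LinearMap.smul_apply, LinearMap.smul_apply, LinearMap.comp_apply, symEval_foulkes,
      LinearMap.sum_apply,
      symEval_rows u (fun j i => (LinearMap.proj (v j i) : Module.Dual ℂ (Fin n → ℂ))),
      smul_eq_mul, smul_eq_mul]
    ring
  have h2 := LinearMap.congr_fun h1 (elOf l)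
  rw [LinearMap.smul_apply, LinearMap.smul_apply, LinearMap.comp_apply, h0, map_zero, smul_zero,
    smul_eq_mul, LinearMap.sum_apply] at h2
  have h3 := (mul_eq_zero.1 h2).resolve_left (by exact_mod_cast Fintype.card_ne_zero)
  rw [← h3]
  apply Finset.sum_congr rfl
  intro σ _
  exact formOf_lin l (fun i j => X (v j (σ j i))) _ (fun i j => evL_X _)

end Vale.Agent.P181.ModP.RB

namespace Vale.Agent.P181.ModP

open Vale.Agent.P181 Vale.Agent.P181.H280

/-- **Row B.** -/
theorem sol_of_hw {a b n : ℕ} (lam : Fin n → ℕ) (x : Pleth a b n)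
    (hx : x ∈ hwSpace lam (plethAct a b n)) (h0 : foulkesHowe a b (Fin n → ℂ) x = 0)
    (hx0 : x ≠ 0) : ∃ c : Lab a b n → ℂ, Sol lam c ∧ c ≠ 0 := by
  obtain ⟨l, rfl⟩ := exists_elOf x
  exact ⟨RB.cf l, ⟨RB.pos l, RB.row l, RB.wt lam l hx,
    fun i m him w s hs => RB.shear lam l hx i m him w s hs, RB.ker l h0⟩, RB.ne_zero l hx0⟩

end Vale.Agent.P181.ModP
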