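import Vale.Agent.P181.R2.H240.Row3

/-!
Row R8 of `P181.ThreeRowTail`: the step from `b` to `b + 1`.
-/

set_option autoImplicit false

open MvPolynomial

namespace Vale.Agent.P181.T3R

open Vale.Agent.P181 Vale.Agent.P181.H536 Vale.Agent.P181.H280 Vale.Agent.P181.H240

/-- The coefficient form `D_j(ξ)`. -/
noncomputable def Psi {a : ℕ} (F : Fm a) (x : ℂ) (j : ℕ) : Fm a :=
  ∑ S ∈ Finset.powersetCard j (Finset.univ : Finset (Fin a)),
    F.compLinearMap (fun i => LinearMap.mulLeft ℂ (if i ∈ S then (X 2 : S3) else ln x))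

lemma Psi_apply {a : ℕ} (F : Fm a) (x : ℂ) (j : ℕ) (h : Fin a → S3) :
    Psi F x j h = DD F j (X 2) (ln x) h := by
  rw [Psi, _root_.sum_apply]
  rfl

lemma Psi_big {a : ℕ} (F : Fm a) (x : ℂ) (j : ℕ) (hj : a < j) (h : Fin a → S3) :
    Psi F x j h = 0 := by
  rw [Psi, Finset.powersetCard_eq_empty.2, Finset.sum_empty]
  · rfl
  · rw [Finset.card_univ, Fintype.card_fin]; exact hj

/-- The generating polynomial of the coefficient forms. -/
noncomputable def pol {a : ℕ} (F : Fm a) (x : ℂ) (h : Fin a → S3) : Polynomial ℂ :=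
  ∑ j ∈ Finset.range (a + 1), Polynomial.C (Psi F x j h) * Polynomial.X ^ j

lemma pol_eval {a : ℕ} (F : Fm a) (x : ℂ) (h : Fin a → S3) (e : ℂ) :
    (pol F x h).eval e = F (fun i => (ln x + e • X 2) * h i) := by
  rw [H240.line_eq, pol]
  simp only [Polynomial.eval_finsetSum, Polynomial.eval_mul, Polynomial.eval_C,
    Polynomial.eval_pow, Polynomial.eval_X, Psi_apply]

lemma pol_coeff {a : ℕ} (F : Fm a) (x : ℂ) (h : Fin a → S3) (j : ℕ) :
    (pol F x h).coeff j = Psi F x j h := by
  rw [pol, Polynomial.finsetSum_coeff]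
  simp only [Polynomial.coeff_C_mul, Polynomial.coeff_X_pow]
  by_cases hj : j < a + 1
  · rw [Finset.sum_eq_single j]
    · rw [if_pos rfl, mul_one]
    · intro i _ hi
      rw [if_neg (Ne.symm hi), mul_zero]
    · intro h'
      exact absurd (Finset.mem_range.2 hj) h'
  · rw [Psi_big F x j (by omega)]
    apply Finset.sum_eq_zero
    intro i hi
    rw [if_neg, mul_zero]
    intro h'
    rw [Finset.mem_range] at hi
    omega

lemma Psi_symm {a : ℕ} {F : Fm a} (hF : IsSymm F) (x : ℂ) (j : ℕ) : IsSymm (Psi F x j) := by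
  intro σ P
  rw [← pol_coeff, ← pol_coeff]
  congr 1
  apply Polynomial.funext
  intro e
  rw [pol_eval, pol_eval]
  exact hF σ (fun i => (ln x + e • X 2) * P i)

lemma Psi_isK {a b : ℕ} {F : Fm a} (hF : IsK (linS 3) (b + 1) F) (x : ℂ) (j : ℕ) :
    IsK (linS 3) b (Psi F x j) := by
  intro m hm hmL
  rw [← pol_coeff]
  have h1 : pol F x (fun _ => m.prod) = 0 := by
    apply Polynomial.funext
    intro e
    rw [pol_eval, Polynomial.eval_zero]
    have h2 := hF ((ln x + e • X 2) ::ₘ m) (by rw [Multiset.card_cons, hm]) (by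
      intro y hy
      rcases Multiset.mem_cons.1 hy with rfl | hy
      · exact line_mem x e
      · exact hmL y hy)
    rw [Multiset.prod_cons] at h2
    exact h2
  rw [h1, Polynomial.coeff_zero]

lemma Psi_tau {a b t : ℕ} {F : Fm a} (hF : Hom (b + 1) t F) (x : ℂ) (j : ℕ) (c : ℂ) (hc : c ≠ 0)
    (h : Fin a → S3) (hh : Dg b h) :
    c ^ j * Psi F x j (fun i => tau c (h i)) = c ^ t * Psi F x j h := by
  have h1 : (pol F x (fun i => tau c (h i))).comp (Polynomial.C c * Polynomial.X) =
      Polynomial.C (c ^ t) * pol F x h := by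
    apply Polynomial.funext
    intro e
    rw [Polynomial.eval_comp, Polynomial.eval_mul, Polynomial.eval_mul, Polynomial.eval_C,
      Polynomial.eval_C, Polynomial.eval_X, pol_eval, pol_eval]
    rw [← hF c hc _ (Dg_mul (b := b + 1) (by omega) hh (line_mem x e))]
    congr 1
    funext i
    have h3 : tau c (ln x) = ln x := tau_U2 (d := 1) c (by rw [pow_one]; exact ln_mem_U2 x)
    rw [map_mul, map_add, map_smul, tau_X2, h3, smul_smul, mul_comm e c]
  have h2 := congrArg (fun p => p.coeff j) h1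
  simp only [Polynomial.comp_C_mul_X_coeff, Polynomial.coeff_C_mul, pol_coeff] at h2
  rw [← h2, mul_comm]

lemma tau_poly (y : S3) : ∃ P : Polynomial S3, ∀ c : ℂ, P.eval (algebraMap ℂ S3 c) = tau c y := by
  refine ⟨aeval (![Polynomial.C (X 0), Polynomial.C (X 1), Polynomial.X * Polynomial.C (X 2)] :
    Fin 3 → Polynomial S3) y, fun c => ?_⟩
  have h1 : ((Polynomial.aeval (R := S3) (A := S3) (algebraMap ℂ S3 c)).restrictScalars ℂ).comp
      (aeval (![Polynomial.C (X 0), Polynomial.C (X 1), Polynomial.X * Polynomial.C (X 2)] :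
        Fin 3 → Polynomial S3)) = tau c := by
    apply MvPolynomial.algHom_ext
    intro i
    rw [AlgHom.comp_apply, aeval_X]
    fin_cases i
    · simp [tau]
    · simp [tau]
    · simp only [tau, Algebra.smul_def, aeval_X]
      simp
      ring
  have h2 := congrArg (fun f => f y) h1
  simp only [AlgHom.comp_apply] at h2
  rw [← h2]
  simp [Polynomial.coe_aeval_eq_eval]

lemma Psi_zero_of_lt {a b t : ℕ} {F : Fm a} (hF : Hom (b + 1) t F) (x : ℂ) (j : ℕ) (hj : t < j)
    (h : Fin a → S3) (hh : Dg b h) : Psi F x j h = 0 := by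
  choose P hP using fun i => tau_poly (h i)
  obtain ⟨p, hp⟩ := poly_exists (Psi F x j) P
  have h1 : Polynomial.X ^ j * p = Polynomial.C (Psi F x j h) * Polynomial.X ^ t := by
    apply Polynomial.eq_of_infinite_eval_eq
    apply Set.Infinite.mono (s := ({0} : Set ℂ)ᶜ)
    · intro c hc
      rw [Set.mem_ofPred_eq, Polynomial.eval_mul, Polynomial.eval_pow, Polynomial.eval_X, hp,
        Polynomial.eval_mul, Polynomial.eval_pow, Polynomial.eval_X, Polynomial.eval_C,
        mul_comm (Psi F x j h), ← Psi_tau hF x j c hc h hh]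
      simp only [hP]
    · exact (Set.finite_singleton (0 : ℂ)).infinite_compl
  have h2 := congrArg (fun q => q.coeff t) h1
  simp only [Polynomial.coeff_C_mul, Polynomial.coeff_X_pow, if_true, mul_one] at h2
  rw [← h2, Polynomial.coeff_X_pow_mul', if_neg (by omega)]

lemma Psi_hom {a b t : ℕ} {F : Fm a} (hF : Hom (b + 1) t F) (x : ℂ) (j : ℕ) (hj : j ≤ t) :
    Hom b (t - j) (Psi F x j) := by
  intro c hc P hP
  have h1 := Psi_tau hF x j c hc P hP
  have h2 : c ^ t = c ^ j * c ^ (t - j) := by rw [← pow_add]; congr 1; omega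
  rw [h2, mul_assoc] at h1
  exact mul_left_cancel₀ (pow_ne_zero _ hc) h1

lemma Psi_inv {a b : ℕ} {F : Fm a} (hF : Inv (b + 1) F) (x : ℂ) (j : ℕ)
    (hj : ∀ i, j < i → Van b (Psi F x i)) : Inv b (Psi F x j) := by
  intro ε P hP
  have h1 : (pol F x (fun i => sh ε (P i))).comp (Polynomial.X + Polynomial.C ε) = pol F x P := by
    apply Polynomial.funext
    intro e
    rw [Polynomial.eval_comp, Polynomial.eval_add, Polynomial.eval_C, Polynomial.eval_X, pol_eval,
      pol_eval]
    rw [← hF ε _ (Dg_mul (b := b + 1) (by omega) hP (line_mem x e))]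
    congr 1
    funext i
    rw [map_mul, map_add, map_smul, sh_X2, ln, map_add, map_smul, sh_X0, sh_X1, add_smul]
    congr 1
    abel
  have h2 := congrArg (fun p => p.coeff j) h1
  simp only [pol_coeff] at h2
  rw [← h2, Polynomial.comp, Polynomial.eval₂_eq_sum_range, Polynomial.finsetSum_coeff]
  symm
  have hP' : Dg b (fun i => sh ε (P i)) := fun i => sh_mem ε (hP i)
  rw [Finset.sum_eq_single j]
  · rw [Polynomial.coeff_C_mul, Polynomial.coeff_X_add_C_pow, Nat.sub_self, pow_zero, one_mul,
      Nat.choose_self, Nat.cast_one, mul_one, pol_coeff]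
  · intro i _ hi
    rw [Polynomial.coeff_C_mul, Polynomial.coeff_X_add_C_pow, pol_coeff]
    rcases lt_or_gt_of_ne hi with h' | h'
    · rw [Nat.choose_eq_zero_of_lt h', Nat.cast_zero, mul_zero, mul_zero]
    · rw [hj i h' _ hP', zero_mul]
  · intro h'
    rw [Finset.mem_range, not_lt] at h'
    have h4 : (pol F x fun i => sh ε (P i)).coeff j = 0 :=
      Polynomial.coeff_eq_zero_of_natDegree_lt (by omega)
    rw [h4, Polynomial.C_0, zero_mul, Polynomial.coeff_zero]

/-- **The step from `b` to `b + 1`.** -/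
theorem tstep {s a b t : ℕ} (hs : 1 ≤ s) (hK : ∀ t', t' + s ≤ t → KK a b t')
    (hL : LL s a (b + 1) t) : KK a (b + 1) t := by
  intro F hsy hI hH hIK
  apply hL F hsy hI hH
  intro x h hh
  have hb : b + 1 - 1 = b := by omega
  rw [hb] at hh
  have key : ∀ n j, s ≤ j → a + 1 ≤ j + n → Van b (Psi F x j) := by
    intro n
    induction n with
    | zero =>
      intro j _ hj P _
      exact Psi_big F x j (by omega) P
    | succ n ih =>
      intro j hsj hj
      by_cases hjt : t < j
      · intro P hP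
        exact Psi_zero_of_lt hH x j hjt P hP
      · exact hK (t - j) (by omega) (Psi F x j) (Psi_symm hsy x j)
          (Psi_inv hI x j (fun i hi => ih i (by omega) (by omega)))
          (Psi_hom hH x j (by omega)) (Psi_isK hIK x j)
  refine ⟨pol F x h, ?_, fun c => pol_eval F x h c⟩
  rw [Polynomial.degree_lt_iff_coeff_zero]
  intro j hj
  rw [pol_coeff]
  exact key (a + 1) j hj (by omega) h hh

end Vale.Agent.P181.T3R
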