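import Vale.Agent.P181.R2.H240.LemmaI

/-!
Weighted degrees of a polynomial from its restrictions to weighted lines, and vanishing at all
products of chart linear forms for any number of last variables.
-/

set_option autoImplicit false

open MvPolynomial

namespace Vale.Agent.P181.H240

open Vale.Agent.P181 H536

section Poly

variable {σ : Type*} [Fintype σ]

/-- The weighted degree of a polynomial is bounded if its restrictions to all weighted lines
have bounded degree. -/
lemma weight_le_of_lines (G : MvPolynomial σ ℂ) (w : σ → ℕ) (d : ℕ)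
    (h : ∀ c : σ → ℂ, ∃ p : Polynomial ℂ, p.natDegree ≤ d ∧
      ∀ e, p.eval e = eval (fun i => e ^ w i * c i) G) (m : σ →₀ ℕ) (hm : m ∈ G.support) :
    ∑ i, w i * m i ≤ d := by
  classical
  by_contra hlt
  push Not at hlt
  let Gn : MvPolynomial σ ℂ :=
    ∑ f ∈ G.support.filter (fun f => ∑ i, w i * f i = ∑ i, w i * m i), monomial f (coeff f G)
  have hGn : Gn = 0 := by
    apply MvPolynomial.funext
    intro c
    rw [map_zero]
    obtain ⟨p, hp, hpe⟩ := h c
    let g : Polynomial ℂ := ∑ f ∈ G.support,
      Polynomial.C (coeff f G * ∏ i, c i ^ f i) * Polynomial.X ^ (∑ i, w i * f i)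
    have hg : g = p := by
      apply Polynomial.funext
      intro e
      rw [hpe, eval_eq']
      simp only [g, Polynomial.eval_finsetSum, Polynomial.eval_mul, Polynomial.eval_C,
        Polynomial.eval_pow, Polynomial.eval_X]
      apply Finset.sum_congr rfl
      intro f _
      rw [mul_assoc]
      congr 1
      simp only [mul_pow]
      rw [Finset.prod_mul_distrib, mul_comm]
      congr 1
      rw [← Finset.prod_pow_eq_pow_sum]
      apply Finset.prod_congr rfl
      intro i _
      rw [pow_mul]
    have hgc : g.coeff (∑ i, w i * m i) = 0 := by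
      rw [hg]
      exact Polynomial.coeff_eq_zero_of_natDegree_lt (lt_of_le_of_lt hp hlt)
    rw [← hgc]
    simp only [g, Gn, Polynomial.finsetSum_coeff, Polynomial.coeff_C_mul, Polynomial.coeff_X_pow,
      map_sum]
    rw [Finset.sum_filter]
    apply Finset.sum_congr rfl
    intro f _
    by_cases hf : ∑ i, w i * f i = ∑ i, w i * m i
    · rw [if_pos hf, if_pos hf.symm, eval_monomial, mul_one, Finsupp.prod_fintype _ _
        (fun i => pow_zero _)]
    · rw [if_neg hf, if_neg (Ne.symm hf), mul_zero]
  have h2 : coeff m Gn = coeff m G := by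
    simp only [Gn, coeff_sum, coeff_monomial]
    rw [Finset.sum_filter, Finset.sum_eq_single m]
    · rw [if_pos rfl, if_pos rfl]
    · intro f _ hf
      rw [if_neg hf, ite_self]
    · intro hm'
      exact absurd hm hm'
  rw [hGn, coeff_zero] at h2
  exact (mem_support_iff.1 hm) h2.symm

/-- Block degrees from lines. -/
lemma block_le_of_lines {ι κ : Type*} [Fintype ι] [Fintype κ] [DecidableEq ι]
    (G : MvPolynomial (ι × κ) ℂ) (j : ι) (d : ℕ)
    (h : ∀ c : ι × κ → ℂ, ∃ p : Polynomial ℂ, p.natDegree ≤ d ∧
      ∀ e, p.eval e = eval (fun q => if q.1 = j then e * c q else c q) G)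
    (m : ι × κ →₀ ℕ) (hm : m ∈ G.support) : ∑ i, m (j, i) ≤ d := by
  have h1 := weight_le_of_lines G (fun q => if q.1 = j then 1 else 0) d (by
    intro c
    obtain ⟨p, hp, hpe⟩ := h c
    refine ⟨p, hp, fun e => ?_⟩
    rw [hpe]
    have h2 : (fun q : ι × κ => if q.1 = j then e * c q else c q) =
        fun q => e ^ (if q.1 = j then 1 else 0) * c q := by
      funext q
      split_ifs
      · rw [pow_one]
      · rw [pow_zero, one_mul]
    rw [h2]) m hm
  rw [Fintype.sum_prod_type, Finset.sum_eq_single j] at h1
  · simpa using h1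
  · intro i _ hi
    apply Finset.sum_eq_zero
    intro k _
    simp [hi]
  · intro h'
    exact absurd (Finset.mem_univ _) h'

end Poly

variable {A : Type*} [CommRing A] [Algebra ℂ A]

/-- Vanishing at all products of chart linear forms implies `IsK`; here `Z` is any submodule. -/
theorem isK_of_chartZ {a b : ℕ} (F : MultilinearMap ℂ (fun _ : Fin a => A) ℂ) (p q : A)
    (Z L : Submodule ℂ A) (hL : ∀ l ∈ L, ∃ α β : ℂ, ∃ z ∈ Z, l = α • p + β • q + z)
    (h : ∀ (x : Fin b → ℂ) (z : Fin b → A), (∀ j, z j ∈ Z) →
      F (fun _ => ∏ j, (lin p q (x j) + z j)) = 0) : IsK L b F := by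
  intro m hm hmL
  obtain ⟨f, hf⟩ := exists_fin_map m b hm
  have hfL : ∀ j, f j ∈ L := by
    intro j
    apply hmL
    rw [hf]
    exact Multiset.mem_map_of_mem f (Finset.mem_univ_val j)
  choose α β z hz hl using fun j => hL (f j) (hfL j)
  have hmp : m.prod = ∏ j, f j := by
    rw [hf]; rfl
  rw [hmp]
  obtain ⟨P, hP⟩ := poly_exists F (fun _ => ∏ j, (Polynomial.C (f j) + Polynomial.X * Polynomial.C p))
  have hP' : ∀ e : ℂ, P.eval e = F (fun _ => ∏ j, (f j + e • p)) := by
    intro e
    rw [hP]
    congr 1
    funext _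
    rw [Polynomial.eval_prod]
    apply Finset.prod_congr rfl
    intro j _
    rw [Polynomial.eval_add, Polynomial.eval_C, Polynomial.eval_mul, Polynomial.eval_X,
      Polynomial.eval_C, Algebra.smul_def]
  have hP0 : P = 0 := by
    apply Polynomial.eq_of_infinite_eval_eq
    apply Set.Infinite.mono (s := ((Set.range (fun j => - α j)))ᶜ)
    · intro e he
      rw [Set.mem_ofPred_eq, Polynomial.eval_zero, hP']
      have hne : ∀ j, α j + e ≠ 0 := by
        intro j hj
        apply he
        exact ⟨j, by simp only; linear_combination -hj⟩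
      have h1 : ∀ j, f j + e • p =
          (α j + e) • (lin p q (β j / (α j + e)) + (α j + e)⁻¹ • z j) := by
        intro j
        rw [smul_add, lin, smul_add, smul_smul, smul_smul, mul_div_cancel₀ _ (hne j),
          mul_inv_cancel₀ (hne j), one_smul, hl j, add_smul]
        abel
      have h2 : (fun _ : Fin a => ∏ j, (f j + e • p)) = fun _ : Fin a => (∏ j, (α j + e)) •
          ∏ j, (lin p q (β j / (α j + e)) + (α j + e)⁻¹ • z j) := by
        funext _
        rw [Finset.prod_congr rfl (fun j _ => h1 j), Finset.prod_smul]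
      rw [h2, MultilinearMap.map_smul_univ,
        h (fun j => β j / (α j + e)) (fun j => (α j + e)⁻¹ • z j)
          (fun j => Z.smul_mem _ (hz j)), smul_zero]
    · exact (Set.finite_range _).infinite_compl
  have h3 := hP' 0
  rw [hP0, Polynomial.eval_zero] at h3
  rw [h3]
  congr 1
  funext _
  apply Finset.prod_congr rfl
  intro j _
  rw [zero_smul, add_zero]

end Vale.Agent.P181.H240
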